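import Mathlib

/-!
# P207, line N4, row FQY (helper467): the `C^{1,1}` criterion

A Lipschitz map whose second differences are `O(|a| |b|)` is differentiable.
-/

open Set Filter Topology Metric

namespace Vale.Agent.P207.H467

variable {E F : Type*} [NormedAddCommGroup E] [NormedSpace ℝ E] [NormedAddCommGroup F]
  [NormedSpace ℝ F]

/-- the dyadic difference quotients -/
noncomputable def dq (g : E → F) (y : E) (v : E) (n : ℕ) : F :=
  (2 : ℝ) ^ n • (g (y + ((2 : ℝ) ^ n)⁻¹ • v) - g y)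

theorem tp : Tendsto (fun n : ℕ => ((2 : ℝ) ^ n)⁻¹) atTop (𝓝 0) :=
  tendsto_inv_atTop_zero.comp (tendsto_pow_atTop_atTop_of_one_lt (one_lt_two (α := ℝ)))

theorem eventually_mem {V : Set E} (hV : IsOpen V) {y : E} (hy : y ∈ V) (v : E) :
    ∀ᶠ n : ℕ in atTop, y + ((2 : ℝ) ^ n)⁻¹ • v ∈ V := by
  have h2 : Tendsto (fun n : ℕ => y + ((2 : ℝ) ^ n)⁻¹ • v) atTop (𝓝 (y + (0 : ℝ) • v)) :=
    tendsto_const_nhds.add (tp.smul_const v)
  rw [zero_smul, add_zero] at h2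
  exact h2.eventually (hV.mem_nhds hy)

theorem dq_succ_sub {g : E → F} {y v : E} {n : ℕ} {C : ℝ}
    (h : ‖g (y + ((2 : ℝ) ^ (n + 1))⁻¹ • v + ((2 : ℝ) ^ (n + 1))⁻¹ • v)
      - g (y + ((2 : ℝ) ^ (n + 1))⁻¹ • v) - g (y + ((2 : ℝ) ^ (n + 1))⁻¹ • v) + g y‖
      ≤ C * ‖((2 : ℝ) ^ (n + 1))⁻¹ • v‖ * ‖((2 : ℝ) ^ (n + 1))⁻¹ • v‖) :
    ‖dq g y v n - dq g y v (n + 1)‖ ≤ C * ‖v‖ ^ 2 / 2 / 2 / 2 ^ n := by
  have h2 : ((2 : ℝ) ^ (n + 1))⁻¹ • v + ((2 : ℝ) ^ (n + 1))⁻¹ • v = ((2 : ℝ) ^ n)⁻¹ • v := by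
    rw [← add_smul]
    congr 1
    rw [pow_succ]
    field_simp
    norm_num
  rw [add_assoc, h2] at h
  have h3 : dq g y v n - dq g y v (n + 1)
      = (2 : ℝ) ^ n • (g (y + ((2 : ℝ) ^ n)⁻¹ • v) - g (y + ((2 : ℝ) ^ (n + 1))⁻¹ • v)
        - g (y + ((2 : ℝ) ^ (n + 1))⁻¹ • v) + g y) := by
    simp only [dq, pow_succ]
    module
  rw [h3, norm_smul, Real.norm_of_nonneg (by positivity)]
  rw [norm_smul, norm_inv, Real.norm_of_nonneg (by positivity : (0 : ℝ) ≤ 2 ^ (n + 1))] at h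
  refine (mul_le_mul_of_nonneg_left h (by positivity)).trans (le_of_eq ?_)
  rw [pow_succ]
  field_simp
  try norm_num

/-- **the `C^{1,1}` criterion** -/
theorem c11 [CompleteSpace F] {V : Set E} (hV : IsOpen V) {g : E → F} {L C : ℝ} (hC0 : 0 ≤ C)
    (hL0 : 0 ≤ L)
    (hL : ∀ y ∈ V, ∀ z ∈ V, ‖g y - g z‖ ≤ L * ‖y - z‖)
    (hC : ∀ y a b, y ∈ V → y + a ∈ V → y + b ∈ V → y + a + b ∈ V →
      ‖g (y + a + b) - g (y + a) - g (y + b) + g y‖ ≤ C * ‖a‖ * ‖b‖) {y : E} (hy : y ∈ V) :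
    ∃ A : E →L[ℝ] F, HasFDerivAt g A y ∧ (∀ v, ‖A v‖ ≤ L * ‖v‖) ∧
      (∀ v, Tendsto (dq g y v) atTop (𝓝 (A v))) ∧
      ∀ r : ℝ, ball y r ⊆ V → ∀ v, ‖v‖ < r → ∀ n, ‖dq g y v n - A v‖ ≤ C * ‖v‖ ^ 2 / 2 / 2 ^ n := by
  obtain ⟨r₀, hr₀, hrV₀⟩ := Metric.isOpen_iff.1 hV y hy
  have hmem : ∀ r : ℝ, ball y r ⊆ V → ∀ v : E, ‖v‖ < r → ∀ c : ℝ, 0 ≤ c → c ≤ 1 → y + c • v ∈ V := by
    intro r hrV v hv c hc hc1
    apply hrV
    rw [mem_ball, dist_eq_norm, add_sub_cancel_left, norm_smul, Real.norm_of_nonneg hc]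
    nlinarith [norm_nonneg v]
  have hp1 : ∀ n : ℕ, ((2 : ℝ) ^ n)⁻¹ ≤ 1 := fun n => inv_le_one_of_one_le₀ (one_le_pow₀ (by norm_num))
  have hp0 : ∀ n : ℕ, 0 ≤ ((2 : ℝ) ^ n)⁻¹ := fun n => by positivity
  -- the differences of consecutive quotients
  have hstep : ∀ r : ℝ, ball y r ⊆ V → ∀ v, ‖v‖ < r → ∀ n,
      dist (dq g y v n) (dq g y v (n + 1)) ≤ C * ‖v‖ ^ 2 / 2 / 2 / 2 ^ n := by
    intro r hrV v hv n
    rw [dist_eq_norm]
    have hr0 : 0 < r := (norm_nonneg v).trans_lt hv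
    refine dq_succ_sub (hC y _ _ (hrV (mem_ball_self hr0)) (hmem r hrV v hv _ (hp0 _) (hp1 _))
      (hmem r hrV v hv _ (hp0 _) (hp1 _)) ?_)
    rw [add_assoc, ← add_smul]
    have : ((2 : ℝ) ^ (n + 1))⁻¹ + ((2 : ℝ) ^ (n + 1))⁻¹ = ((2 : ℝ) ^ n)⁻¹ := by
      rw [pow_succ]; field_simp; norm_num
    rw [this]
    exact hmem r hrV v hv _ (hp0 _) (hp1 _)
  -- rescaling of the quotients
  have hscale : ∀ (v : E) (N n : ℕ), dq g y v (n + N)
      = (2 : ℝ) ^ N • dq g y (((2 : ℝ) ^ N)⁻¹ • v) n := by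
    intro v N n
    simp only [dq, smul_smul, pow_add, mul_inv]
    rw [mul_comm ((2 : ℝ) ^ N)]
  have hex : ∀ v, ∃ l, Tendsto (dq g y v) atTop (𝓝 l) := by
    intro v
    obtain ⟨N, hN⟩ : ∃ N : ℕ, ‖((2 : ℝ) ^ N)⁻¹ • v‖ < r₀ := by
      have h1 : Tendsto (fun n : ℕ => ((2 : ℝ) ^ n)⁻¹ • v) atTop (𝓝 ((0 : ℝ) • v)) :=
        tp.smul_const v
      have h2 := h1.norm
      rw [zero_smul, norm_zero] at h2
      exact (h2.eventually (gt_mem_nhds hr₀)).exists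
    obtain ⟨l, hl⟩ := cauchySeq_tendsto_of_complete
      (cauchySeq_of_le_geometric_two (hstep r₀ hrV₀ _ hN))
    refine ⟨(2 : ℝ) ^ N • l, ?_⟩
    rw [← tendsto_add_atTop_iff_nat N]
    simp only [hscale]
    exact hl.const_smul _
  choose A hA using hex
  have hAb : ∀ v, ‖A v‖ ≤ L * ‖v‖ := by
    intro v
    refine le_of_tendsto (hA v).norm ?_
    filter_upwards [eventually_mem hV hy v] with n hn
    simp only [dq]
    rw [norm_smul, Real.norm_of_nonneg (by positivity)]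
    have h1 := hL _ hn y hy
    rw [add_sub_cancel_left, norm_smul, Real.norm_of_nonneg (hp0 n)] at h1
    calc (2 : ℝ) ^ n * ‖g (y + ((2 : ℝ) ^ n)⁻¹ • v) - g y‖
        ≤ (2 : ℝ) ^ n * (L * (((2 : ℝ) ^ n)⁻¹ * ‖v‖)) := by gcongr
      _ = L * ‖v‖ := by field_simp
  have hadd : ∀ v w, A (v + w) = A v + A w := by
    intro v w
    have h1 : Tendsto (fun n => dq g y (v + w) n - dq g y v n - dq g y w n) atTop
        (𝓝 (A (v + w) - A v - A w)) := ((hA (v + w)).sub (hA v)).sub (hA w)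
    have h2 : Tendsto (fun n => dq g y (v + w) n - dq g y v n - dq g y w n) atTop (𝓝 0) := by
      have h3 : Tendsto (fun n : ℕ => C * ‖v‖ * ‖w‖ * ((2 : ℝ) ^ n)⁻¹) atTop (𝓝 0) := by
        simpa using tp.const_mul (C * ‖v‖ * ‖w‖)
      refine squeeze_zero_norm' ?_ h3
      filter_upwards [eventually_mem hV hy v, eventually_mem hV hy w,
        eventually_mem hV hy (v + w)] with n h4 h5 h6
      have h7 := hC y _ _ hy h4 h5 (by rwa [add_assoc, ← smul_add])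
      have h8 : dq g y (v + w) n - dq g y v n - dq g y w n
          = (2 : ℝ) ^ n • (g (y + ((2 : ℝ) ^ n)⁻¹ • v + ((2 : ℝ) ^ n)⁻¹ • w)
            - g (y + ((2 : ℝ) ^ n)⁻¹ • v) - g (y + ((2 : ℝ) ^ n)⁻¹ • w) + g y) := by
        simp only [dq]
        rw [smul_add ((2 : ℝ) ^ n)⁻¹ v w, ← add_assoc]
        module
      rw [h8, norm_smul, Real.norm_of_nonneg (by positivity)]
      rw [norm_smul, norm_smul, Real.norm_of_nonneg (hp0 n)] at h7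
      calc (2 : ℝ) ^ n * _ ≤ (2 : ℝ) ^ n *
            (C * (((2 : ℝ) ^ n)⁻¹ * ‖v‖) * (((2 : ℝ) ^ n)⁻¹ * ‖w‖)) := by gcongr
        _ = C * ‖v‖ * ‖w‖ * ((2 : ℝ) ^ n)⁻¹ := by field_simp
    have h3 := tendsto_nhds_unique h1 h2
    rw [sub_sub, sub_eq_zero] at h3
    exact h3
  let A0 : E →+ F := AddMonoidHom.mk' A hadd
  have hcont : Continuous A0 := by
    refine continuous_of_continuousAt_zero A0 ?_
    have h0 : A0 0 = 0 := map_zero A0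
    rw [ContinuousAt, h0]
    refine squeeze_zero_norm (a := fun v => L * ‖v‖) hAb ?_
    have : Continuous fun v : E => L * ‖v‖ := by fun_prop
    simpa using this.tendsto 0
  let A1 : E →L[ℝ] F := A0.toRealLinearMap hcont
  have hA1 : ∀ v, A1 v = A v := fun _ => rfl
  have hest : ∀ r : ℝ, ball y r ⊆ V → ∀ v, ‖v‖ < r → ∀ n,
      ‖dq g y v n - A1 v‖ ≤ C * ‖v‖ ^ 2 / 2 / 2 ^ n := by
    intro r hrV v hv n
    have := dist_le_of_le_geometric_two_of_tendsto (hstep r hrV v hv) (hA v) n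
    rwa [dist_eq_norm] at this
  refine ⟨A1, ?_, hAb, hA, hest⟩
  rw [hasFDerivAt_iff_isLittleO_nhds_zero]
  have h1 : (fun h => g (y + h) - g y - A1 h) =O[𝓝 0] fun h => ‖h‖ ^ 2 := by
    refine Asymptotics.IsBigO.of_bound (C / 2) ?_
    filter_upwards [ball_mem_nhds (0 : E) hr₀] with v hv
    rw [mem_ball_zero_iff] at hv
    have := hest r₀ hrV₀ v hv 0
    simp only [dq, pow_zero, one_smul, inv_one, div_one] at this
    rw [Real.norm_of_nonneg (by positivity)]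
    linarith
  exact h1.trans_isLittleO (Asymptotics.isLittleO_norm_pow_id one_lt_two)

end Vale.Agent.P207.H467
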