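import Vale.Agent.P207.N3.H639.Bd
import Vale.Agent.P207.H467.C11

/-!
# P207, line N4 (helper467): differentiable dependence on the initial value

The field is only continuous in the time; the curves are given.
-/

open Set Filter Topology Metric

namespace Vale.Agent.P207.H467

open P207N3H639

section gen

variable {E F : Type*} [NormedAddCommGroup E] [NormedSpace ℝ E] [NormedAddCommGroup F]
  [NormedSpace ℝ F]

theorem ici_of_icc {w : ℝ → F} {w' : F} {t : ℝ} (ht : t ∈ Ico (0 : ℝ) 1)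
    (h : HasDerivWithinAt w w' (Icc 0 1) t) : HasDerivWithinAt w w' (Ici t) t :=
  h.mono_of_mem_nhdsWithin (Icc_mem_nhdsGE_of_mem ht)

theorem gron {w w' : ℝ → F} {δ ε C : ℝ} (hC : 0 ≤ C) (hε : 0 ≤ ε) (hδ : 0 ≤ δ)
    (hw : ∀ t ∈ Icc (0 : ℝ) 1, HasDerivWithinAt w (w' t) (Icc 0 1) t) (h0 : ‖w 0‖ ≤ δ)
    (hb : ∀ t ∈ Icc (0 : ℝ) 1, ‖w' t‖ ≤ C * ‖w t‖ + ε) {t : ℝ} (ht : t ∈ Icc (0 : ℝ) 1) :
    ‖w t‖ ≤ (δ + ε) * Real.exp (C + 1) := by
  have h1 := norm_le_gronwallBound_of_norm_deriv_right_le (f := w) (f' := w') (δ := δ)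
    (K := C + 1) (ε := ε) (a := 0) (b := 1) (fun s hs => (hw s hs).continuousWithinAt)
    (fun s hs => ici_of_icc hs (hw s (Ico_subset_Icc_self hs))) h0
    (fun s hs => (hb s (Ico_subset_Icc_self hs)).trans (by nlinarith [norm_nonneg (w s)])) t ht
  refine h1.trans ?_
  rw [gronwallBound_of_K_ne_0 (by positivity), sub_zero]
  have h2 : Real.exp ((C + 1) * t) ≤ Real.exp (C + 1) := by
    apply Real.exp_le_exp.2
    nlinarith [ht.1, ht.2]
  have h3 : ε / (C + 1) ≤ ε := div_le_self hε (by linarith)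
  have h4 : 1 ≤ Real.exp ((C + 1) * t) := Real.one_le_exp (mul_nonneg (by linarith) ht.1)
  have h5 : 0 ≤ ε / (C + 1) := by positivity
  have h6 : 0 < Real.exp (C + 1) := Real.exp_pos _
  nlinarith [mul_le_mul_of_nonneg_left h2 hδ, mul_le_mul h3 (by linarith : Real.exp ((C + 1) * t) - 1
    ≤ Real.exp (C + 1)) (by linarith) hε]

/-- continuity along a moving point -/
theorem cont_comp {g : ℝ → E → F} {U : Set E} {C : ℝ} {I : Set ℝ}
    (hl : ∀ t ∈ I, ∀ x ∈ U, ∀ x' ∈ U, ‖g t x - g t x'‖ ≤ C * ‖x - x'‖)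
    (hc : ∀ x ∈ U, ContinuousOn (fun t => g t x) I) {x : ℝ → E} (hx : ContinuousOn x I)
    (hxU : ∀ t ∈ I, x t ∈ U) : ContinuousOn (fun t => g t (x t)) I := by
  intro t₀ ht₀
  have h1 : Tendsto (fun t => C * ‖x t - x t₀‖ + ‖g t (x t₀) - g t₀ (x t₀)‖) (𝓝[I] t₀) (𝓝 0) := by
    have h2 := (tendsto_iff_norm_sub_tendsto_zero.1 (hx t₀ ht₀)).const_mul C
    have h3 := tendsto_iff_norm_sub_tendsto_zero.1 (hc _ (hxU t₀ ht₀) t₀ ht₀)
    simpa using h2.add h3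
  rw [ContinuousWithinAt, tendsto_iff_norm_sub_tendsto_zero]
  refine squeeze_zero' (Eventually.of_forall fun _ => norm_nonneg _) ?_ h1
  filter_upwards [self_mem_nhdsWithin] with t ht
  calc ‖g t (x t) - g t₀ (x t₀)‖
      ≤ ‖g t (x t) - g t (x t₀)‖ + ‖g t (x t₀) - g t₀ (x t₀)‖ := norm_sub_le_norm_sub_add_norm_sub _ _ _
    _ ≤ _ := by gcongr; exact hl t ht _ (hxU t ht) _ (hxU t₀ ht₀)

end gen

variable {E : Type} [NormedAddCommGroup E] [NormedSpace ℝ E]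

/-- A family of curves of the field `f` in the convex set `U`, with initial values in `V`. -/
structure Fl (k : ℕ) (C R : ℝ) (f : ℝ → E → E) (U V : Set E) (X : ℝ → E → E) : Prop where
  hU : IsOpen U
  hc : Convex ℝ U
  hR : ∀ x ∈ U, ‖x‖ ≤ R
  hV : IsOpen V
  bd : ∀ t ∈ Icc (0 : ℝ) 1, Bd U k (f t) C
  ct : ∀ x ∈ U, ContinuousOn (fun t => f t x) (Icc 0 1)
  mem : ∀ y ∈ V, ∀ t ∈ Icc (0 : ℝ) 1, X t y ∈ U
  ini : ∀ y ∈ V, X 0 y = y
  ode : ∀ y ∈ V, ∀ t ∈ Icc (0 : ℝ) 1,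
    HasDerivWithinAt (fun s => X s y) (f t (X t y)) (Icc 0 1) t

theorem i0 : (0 : ℝ) ∈ Icc (0 : ℝ) 1 := left_mem_Icc.2 zero_le_one

theorem bd_lip {G : Type} [NormedAddCommGroup G] [NormedSpace ℝ G] {k : ℕ} {C : ℝ} {U : Set E}
    (hc : Convex ℝ U) {g : E → G} (h : Bd U (k + 1) g C) {x x' : E} (hx : x ∈ U) (hx' : x' ∈ U) :
    ‖g x - g x'‖ ≤ C * ‖x - x'‖ :=
  hc.norm_image_sub_le_of_norm_fderiv_le h.1 (fun z hz => h.2.2.norm_le hz) hx' hx

/-- second differences of a `C^{1,1}` map -/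
theorem bd_sd {G : Type} [NormedAddCommGroup G] [NormedSpace ℝ G] {k : ℕ} {C : ℝ} {U : Set E}
    (hc : Convex ℝ U) {g : E → G} (h : Bd U (k + 2) g C) {x₀ x₁ x₂ x₃ : E} (h0 : x₀ ∈ U)
    (h1 : x₁ ∈ U) (h2 : x₂ ∈ U) (h3 : x₃ ∈ U) :
    ‖g x₃ - g x₁ - g x₂ + g x₀‖
      ≤ C * ‖x₃ - x₁ - x₂ + x₀‖ + C * (‖x₁ - x₀‖ + ‖x₃ - x₂‖) * ‖x₂ - x₀‖ := by
  have hC : 0 ≤ C := h.nonneg ⟨x₀, h0⟩
  have hp : ∀ s ∈ Icc (0 : ℝ) 1, x₁ + s • (x₃ - x₁) ∈ U := fun s hs =>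
    hc.add_smul_sub_mem h1 h3 hs
  have hq : ∀ s ∈ Icc (0 : ℝ) 1, x₀ + s • (x₂ - x₀) ∈ U := fun s hs =>
    hc.add_smul_sub_mem h0 h2 hs
  have hd : ∀ s ∈ Icc (0 : ℝ) 1, HasDerivWithinAt
      (fun s : ℝ => g (x₁ + s • (x₃ - x₁)) - g (x₀ + s • (x₂ - x₀)))
      (fderiv ℝ g (x₁ + s • (x₃ - x₁)) (x₃ - x₁) - fderiv ℝ g (x₀ + s • (x₂ - x₀)) (x₂ - x₀))
      (Icc 0 1) s := by
    intro s hs
    have e1 : HasDerivAt (fun s : ℝ => x₁ + s • (x₃ - x₁)) (x₃ - x₁) s := by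
      simpa using ((hasDerivAt_id s).smul_const (x₃ - x₁)).const_add x₁
    have e2 : HasDerivAt (fun s : ℝ => x₀ + s • (x₂ - x₀)) (x₂ - x₀) s := by
      simpa using ((hasDerivAt_id s).smul_const (x₂ - x₀)).const_add x₀
    exact (((h.1 _ (hp s hs)).hasFDerivAt.comp_hasDerivAt s e1).sub
      ((h.1 _ (hq s hs)).hasFDerivAt.comp_hasDerivAt s e2)).hasDerivWithinAt
  have key := norm_image_sub_le_of_norm_deriv_le_segment_01'
    (C := C * ‖x₃ - x₁ - x₂ + x₀‖ + C * (‖x₁ - x₀‖ + ‖x₃ - x₂‖) * ‖x₂ - x₀‖) hd ?_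
  · simp only [one_smul, zero_smul, add_zero, add_sub_cancel] at key
    have e : g x₃ - g x₂ - (g x₁ - g x₀) = g x₃ - g x₁ - g x₂ + g x₀ := by abel
    rwa [e] at key
  · intro s hs'
    have hs := Ico_subset_Icc_self hs'
    set p := x₁ + s • (x₃ - x₁) with hpdef
    set q := x₀ + s • (x₂ - x₀) with hqdef
    have e : fderiv ℝ g p (x₃ - x₁) - fderiv ℝ g q (x₂ - x₀)
        = fderiv ℝ g p (x₃ - x₁ - x₂ + x₀) + (fderiv ℝ g p - fderiv ℝ g q) (x₂ - x₀) := by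
      have h7 : x₃ - x₁ - x₂ + x₀ = (x₃ - x₁) - (x₂ - x₀) := by abel
      have h8 : (fderiv ℝ g p - fderiv ℝ g q) (x₂ - x₀)
          = fderiv ℝ g p (x₂ - x₀) - fderiv ℝ g q (x₂ - x₀) := rfl
      rw [h8, h7, map_sub (fderiv ℝ g p) (x₃ - x₁) (x₂ - x₀)]
      abel
    rw [e]
    refine (norm_add_le _ _).trans (add_le_add ?_ ?_)
    · refine (ContinuousLinearMap.le_opNorm _ _).trans ?_
      gcongr
      exact h.2.2.norm_le (hp s hs)
    · refine (ContinuousLinearMap.le_opNorm _ _).trans ?_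
      gcongr
      refine (bd_lip hc h.2.2 (hp s hs) (hq s hs)).trans ?_
      gcongr
      have e3 : p - q = (1 - s) • (x₁ - x₀) + s • (x₃ - x₂) := by
        rw [hpdef, hqdef]; module
      rw [e3]
      refine (norm_add_le _ _).trans ?_
      rw [norm_smul, norm_smul, Real.norm_of_nonneg hs.1, Real.norm_of_nonneg (by linarith [hs.2])]
      nlinarith [norm_nonneg (x₁ - x₀), norm_nonneg (x₃ - x₂), hs.1, hs.2]

theorem bd_taylor {G : Type} [NormedAddCommGroup G] [NormedSpace ℝ G] {k : ℕ} {C : ℝ} {U : Set E}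
    (hc : Convex ℝ U) {g : E → G} (h : Bd U (k + 2) g C) {x x' : E} (hx : x ∈ U) (hx' : x' ∈ U) :
    ‖g x' - g x - fderiv ℝ g x (x' - x)‖ ≤ C * ‖x' - x‖ * ‖x' - x‖ := by
  have hC : 0 ≤ C := h.nonneg ⟨x, hx⟩
  have hseg : segment ℝ x x' ⊆ U := hc.segment_subset hx hx'
  refine (convex_segment x x').norm_image_sub_le_of_norm_fderiv_le'
    (fun z hz => h.1 z (hseg hz)) (fun z hz => ?_) (left_mem_segment ℝ x x')
    (right_mem_segment ℝ x x')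
  refine (bd_lip hc h.2.2 (hseg hz) hx).trans ?_
  gcongr
  have := norm_sub_le_of_mem_segment hz
  exact this

namespace Fl

variable {k : ℕ} {C R : ℝ} {f : ℝ → E → E} {U V : Set E} {X : ℝ → E → E}

theorem C_nonneg (h : Fl k C R f U V X) {y : E} (hy : y ∈ V) : 0 ≤ C :=
  (h.bd 0 i0).nonneg ⟨_, h.mem y hy 0 i0⟩

theorem curve_cont (h : Fl k C R f U V X) {y : E} (hy : y ∈ V) :
    ContinuousOn (fun s => X s y) (Icc 0 1) := fun t ht => (h.ode y hy t ht).continuousWithinAt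

theorem lip (h : Fl (k + 1) C R f U V X) {y z : E} (hy : y ∈ V) (hz : z ∈ V) {t : ℝ}
    (ht : t ∈ Icc (0 : ℝ) 1) : ‖X t y - X t z‖ ≤ Real.exp (C + 1) * ‖y - z‖ := by
  have h1 := gron (w := fun t => X t y - X t z) (h.C_nonneg hy) le_rfl (norm_nonneg (y - z))
    (fun t ht => (h.ode y hy t ht).sub (h.ode z hz t ht)) (by simp only [h.ini y hy, h.ini z hz, le_refl])
    (fun t ht => (bd_lip h.hc (h.bd t ht) (h.mem y hy t ht) (h.mem z hz t ht)).trans (by simp)) ht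
  simpa [mul_comm] using h1

theorem sd (h : Fl (k + 2) C R f U V X) {y a b : E} (hy : y ∈ V) (hya : y + a ∈ V)
    (hyb : y + b ∈ V) (hyab : y + a + b ∈ V) {t : ℝ} (ht : t ∈ Icc (0 : ℝ) 1) :
    ‖X t (y + a + b) - X t (y + a) - X t (y + b) + X t y‖
      ≤ (2 * C * Real.exp (C + 1) ^ 3) * ‖a‖ * ‖b‖ := by
  have hC := h.C_nonneg hy
  have h' : Fl ((k + 1) + 1) C R f U V X := h
  set Λ := Real.exp (C + 1) with hΛ
  have hΛ0 : 0 < Λ := Real.exp_pos _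
  have h1 := gron (w := fun t => X t (y + a + b) - X t (y + a) - X t (y + b) + X t y)
    (w' := fun t => f t (X t (y + a + b)) - f t (X t (y + a)) - f t (X t (y + b)) + f t (X t y))
    (δ := 0) (ε := 2 * C * Λ ^ 2 * ‖a‖ * ‖b‖) hC (by positivity) le_rfl
    (fun t ht => (((h.ode _ hyab t ht).sub (h.ode _ hya t ht)).sub (h.ode _ hyb t ht)).add
      (h.ode y hy t ht))
    (by simp only [h.ini _ hyab, h.ini _ hya, h.ini _ hyb, h.ini y hy]
        rw [show y + a + b - (y + a) - (y + b) + y = 0 by abel, norm_zero])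
    (fun t ht => ?_) ht
  · refine h1.trans (le_of_eq ?_)
    ring
  · refine (bd_sd h.hc (h.bd t ht) (h.mem y hy t ht) (h.mem _ hya t ht) (h.mem _ hyb t ht)
      (h.mem _ hyab t ht)).trans ?_
    have e1 := h'.lip hya hy ht
    have e2 := h'.lip hyab hyb ht
    have e3 := h'.lip hyb hy ht
    rw [add_sub_cancel_left] at e1 e3
    rw [show y + a + b - (y + b) = a by abel] at e2
    have e4 : (‖X t (y + a) - X t y‖ + ‖X t (y + a + b) - X t (y + b)‖) * ‖X t (y + b) - X t y‖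
        ≤ (Λ * ‖a‖ + Λ * ‖a‖) * (Λ * ‖b‖) := by gcongr
    nlinarith [mul_le_mul_of_nonneg_left e4 hC]

end Fl

end Vale.Agent.P207.H467
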