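import Vale.Agent.P207.H467.Dep1

/-!
# P207, line N4 (helper467): the variational equation
-/

open Set Filter Topology Metric

namespace Vale.Agent.P207.H467

open P207N3H639

variable {E : Type} [NormedAddCommGroup E] [NormedSpace ℝ E]

/-- the directional derivative is a uniform limit of difference quotients -/
theorem bd_dq {G : Type} [NormedAddCommGroup G] [NormedSpace ℝ G] {k : ℕ} {C : ℝ} {U : Set E}
    (hc : Convex ℝ U) {g : E → G} (h : Bd U (k + 2) g C) {x v : E} (hx : x ∈ U) {n : ℕ}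
    (hxv : x + ((2 : ℝ) ^ n)⁻¹ • v ∈ U) :
    ‖dq g x v n - fderiv ℝ g x v‖ ≤ C * ‖v‖ ^ 2 * ((2 : ℝ) ^ n)⁻¹ := by
  have h1 := bd_taylor hc h hx hxv
  rw [add_sub_cancel_left, map_smul, norm_smul, Real.norm_of_nonneg (by positivity)] at h1
  have h2 : dq g x v n - fderiv ℝ g x v = (2 : ℝ) ^ n • (g (x + ((2 : ℝ) ^ n)⁻¹ • v) - g x
      - ((2 : ℝ) ^ n)⁻¹ • fderiv ℝ g x v) := by
    rw [dq, smul_sub ((2 : ℝ) ^ n) (_ - _), smul_smul, mul_inv_cancel₀ (by positivity), one_smul]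
  rw [h2, norm_smul, Real.norm_of_nonneg (by positivity)]
  refine (mul_le_mul_of_nonneg_left h1 (by positivity)).trans (le_of_eq ?_)
  field_simp

namespace Fl

variable {k : ℕ} {C R : ℝ} {f : ℝ → E → E} {U V : Set E} {X : ℝ → E → E}

theorem f_cont (h : Fl (k + 1) C R f U V X) {x : ℝ → E} (hx : ContinuousOn x (Icc 0 1))
    (hxU : ∀ t ∈ Icc (0 : ℝ) 1, x t ∈ U) : ContinuousOn (fun s => f s (x s)) (Icc 0 1) :=
  cont_comp (fun t ht _ hx _ hx' => bd_lip h.hc (h.bd t ht) hx hx') h.ct hx hxU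

/-- `s ↦ D(f s)(x) v` is continuous -/
theorem fd_cont (h : Fl (k + 2) C R f U V X) {x : E} (hx : x ∈ U) (v : E) :
    ContinuousOn (fun s => fderiv ℝ (f s) x v) (Icc 0 1) := by
  have h1 : TendstoUniformlyOn (fun (n : ℕ) s => dq (f s) x v n) (fun s => fderiv ℝ (f s) x v)
      atTop (Icc 0 1) := by
    rw [Metric.tendstoUniformlyOn_iff]
    intro ε hε
    have h2 : Tendsto (fun n : ℕ => C * ‖v‖ ^ 2 * ((2 : ℝ) ^ n)⁻¹) atTop (𝓝 0) := by
      simpa using tp.const_mul (C * ‖v‖ ^ 2)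
    filter_upwards [eventually_mem h.hU hx v, h2.eventually (gt_mem_nhds hε)] with n hn h3 s hs
    rw [dist_comm, dist_eq_norm]
    exact (bd_dq h.hc (h.bd s hs) hx hn).trans_lt h3
  refine h1.continuousOn (Eventually.frequently ?_)
  filter_upwards [eventually_mem h.hU hx v] with n hn
  exact ((h.ct _ hn).sub (h.ct _ hx)).const_smul _

/-- `s ↦ D(f s)(x)` is continuous -/
theorem fd_cont' [FiniteDimensional ℝ E] (h : Fl (k + 2) C R f U V X) {x : E} (hx : x ∈ U) :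
    ContinuousOn (fun s => fderiv ℝ (f s) x) (Icc 0 1) :=
  continuousOn_clm_apply.2 fun v => h.fd_cont hx v

theorem fd_cont_comp [FiniteDimensional ℝ E] (h : Fl (k + 2) C R f U V X) {x : ℝ → E}
    (hx : ContinuousOn x (Icc 0 1)) (hxU : ∀ t ∈ Icc (0 : ℝ) 1, x t ∈ U) :
    ContinuousOn (fun s => fderiv ℝ (f s) (x s)) (Icc 0 1) :=
  cont_comp (g := fun s => fderiv ℝ (f s))
    (fun t ht _ hx _ hx' => bd_lip h.hc (h.bd t ht).2.2 hx hx') (fun _ hx => h.fd_cont' hx) hx hxU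

variable [CompleteSpace E]

/-- the derivative with respect to the initial value -/
theorem deriv_all (h : Fl (k + 2) C R f U V X) {y : E} (hy : y ∈ V) {t : ℝ}
    (ht : t ∈ Icc (0 : ℝ) 1) :
    HasFDerivAt (X t) (fderiv ℝ (X t) y) y ∧ ‖fderiv ℝ (X t) y‖ ≤ Real.exp (C + 1) ∧
      (∀ v, Tendsto (dq (X t) y v) atTop (𝓝 (fderiv ℝ (X t) y v))) ∧
      ∀ r : ℝ, ball y r ⊆ V → ∀ v, ‖v‖ < r → ∀ n, ‖dq (X t) y v n - fderiv ℝ (X t) y v‖
        ≤ (2 * C * Real.exp (C + 1) ^ 3) * ‖v‖ ^ 2 / 2 / 2 ^ n := by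
  have hC := h.C_nonneg hy
  have h' : Fl ((k + 1) + 1) C R f U V X := h
  obtain ⟨A, hA, h1, h2, h3⟩ := c11 h.hV (g := X t) (L := Real.exp (C + 1))
    (C := 2 * C * Real.exp (C + 1) ^ 3) (by positivity) (by positivity)
    (fun y hy z hz => h'.lip hy hz ht) (fun y a b hy ha hb hab => h.sd hy ha hb hab ht) hy
  rw [hA.fderiv]
  exact ⟨hA, A.opNorm_le_bound (by positivity) h1, h2, h3⟩

theorem norm_fd_le (h : Fl (k + 2) C R f U V X) {y : E} (hy : y ∈ V) {t : ℝ}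
    (ht : t ∈ Icc (0 : ℝ) 1) : ‖fderiv ℝ (X t) y‖ ≤ Real.exp (C + 1) := (h.deriv_all hy ht).2.1

/-- the derivative of the difference quotients -/
theorem dq_deriv (h : Fl k C R f U V X) {y : E} (hy : y ∈ V) {v : E} {n : ℕ}
    (hn : y + ((2 : ℝ) ^ n)⁻¹ • v ∈ V) {t : ℝ} (ht : t ∈ Icc (0 : ℝ) 1) :
    HasDerivWithinAt (fun s => dq (X s) y v n)
      ((2 : ℝ) ^ n • (f t (X t (y + ((2 : ℝ) ^ n)⁻¹ • v)) - f t (X t y))) (Icc 0 1) t :=
  ((h.ode _ hn t ht).sub (h.ode y hy t ht)).const_smul _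

/-- the derivatives of the difference quotients converge -/
theorem exists_rate (h : Fl (k + 2) C R f U V X) {y : E} (hy : y ∈ V) {r : ℝ}
    (hr : ball y r ⊆ V) : ∃ K : ℝ, ∀ v, ‖v‖ < r → ∀ n : ℕ, ∀ t ∈ Icc (0 : ℝ) 1,
      ‖(2 : ℝ) ^ n • (f t (X t (y + ((2 : ℝ) ^ n)⁻¹ • v)) - f t (X t y))
        - fderiv ℝ (f t) (X t y) (fderiv ℝ (X t) y v)‖ ≤ K * ‖v‖ ^ 2 * ((2 : ℝ) ^ n)⁻¹ := by
  have hC := h.C_nonneg hy
  have h' : Fl ((k + 1) + 1) C R f U V X := h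
  set Λ := Real.exp (C + 1) with hΛ
  have hΛ0 : 0 < Λ := Real.exp_pos _
  refine ⟨C * Λ ^ 2 + C * (2 * C * Λ ^ 3), fun v hv n t ht => ?_⟩
  have hn : y + ((2 : ℝ) ^ n)⁻¹ • v ∈ V := by
    apply hr
    rw [mem_ball, dist_eq_norm, add_sub_cancel_left, norm_smul, Real.norm_of_nonneg (by positivity)]
    have h1 : ((2 : ℝ) ^ n)⁻¹ ≤ 1 := inv_le_one_of_one_le₀ (one_le_pow₀ (by norm_num))
    nlinarith [norm_nonneg v]
  set x := X t y with hx
  set x' := X t (y + ((2 : ℝ) ^ n)⁻¹ • v) with hx'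
  have h1 := bd_taylor h.hc (h.bd t ht) (h.mem y hy t ht) (h.mem _ hn t ht)
  have h2 := h'.lip hn hy ht
  rw [add_sub_cancel_left, norm_smul, Real.norm_of_nonneg (by positivity)] at h2
  have h3 := (h.deriv_all hy ht).2.2.2 r hr v hv n
  have h4 : ‖fderiv ℝ (f t) x‖ ≤ C := (h.bd t ht).2.2.norm_le (h.mem y hy t ht)
  have h5 : (2 : ℝ) ^ n • (f t x' - f t x) - fderiv ℝ (f t) x (fderiv ℝ (X t) y v)
      = (2 : ℝ) ^ n • (f t x' - f t x - fderiv ℝ (f t) x (x' - x))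
        + fderiv ℝ (f t) x (dq (X t) y v n - fderiv ℝ (X t) y v) := by
    have e : dq (X t) y v n = (2 : ℝ) ^ n • (x' - x) := rfl
    rw [e, map_sub (fderiv ℝ (f t) x) ((2 : ℝ) ^ n • (x' - x)), map_smul]
    module
  rw [h5]
  refine (norm_add_le _ _).trans ?_
  have h6 : ‖(2 : ℝ) ^ n • (f t x' - f t x - fderiv ℝ (f t) x (x' - x))‖
      ≤ C * Λ ^ 2 * ‖v‖ ^ 2 * ((2 : ℝ) ^ n)⁻¹ := by
    rw [norm_smul, Real.norm_of_nonneg (by positivity)]
    calc (2 : ℝ) ^ n * _ ≤ (2 : ℝ) ^ n * (C * (Λ * (((2 : ℝ) ^ n)⁻¹ * ‖v‖))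
          * (Λ * (((2 : ℝ) ^ n)⁻¹ * ‖v‖))) := by
          gcongr
          exact h1.trans (by gcongr)
      _ = _ := by field_simp
  have h7 : ‖fderiv ℝ (f t) x (dq (X t) y v n - fderiv ℝ (X t) y v)‖
      ≤ C * (2 * C * Λ ^ 3) * ‖v‖ ^ 2 * ((2 : ℝ) ^ n)⁻¹ := by
    refine (ContinuousLinearMap.le_opNorm _ _).trans ?_
    calc ‖fderiv ℝ (f t) x‖ * ‖dq (X t) y v n - fderiv ℝ (X t) y v‖
        ≤ C * ((2 * C * Λ ^ 3) * ‖v‖ ^ 2 / 2 / 2 ^ n) := by gcongr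
      _ ≤ C * ((2 * C * Λ ^ 3) * ‖v‖ ^ 2 / 2 ^ n) := by
          gcongr
          exact half_le_self (by positivity)
      _ = _ := by rw [div_eq_mul_inv]; ring
  refine (add_le_add h6 h7).trans (le_of_eq ?_)
  ring

/-- Lipschitz in time -/
theorem fd_lip_time (h : Fl (k + 2) C R f U V X) {y : E} (hy : y ∈ V) {s t : ℝ}
    (hs : s ∈ Icc (0 : ℝ) 1) (ht : t ∈ Icc (0 : ℝ) 1) :
    ‖fderiv ℝ (X s) y - fderiv ℝ (X t) y‖ ≤ C * Real.exp (C + 1) * ‖s - t‖ := by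
  have hC := h.C_nonneg hy
  have h' : Fl ((k + 1) + 1) C R f U V X := h
  refine ContinuousLinearMap.opNorm_le_bound _ (by positivity) fun v => ?_
  have h1 : Tendsto (fun n => ‖dq (X s) y v n - dq (X t) y v n‖) atTop
      (𝓝 ‖(fderiv ℝ (X s) y - fderiv ℝ (X t) y) v‖) :=
    (((h.deriv_all hy hs).2.2.1 v).sub ((h.deriv_all hy ht).2.2.1 v)).norm
  refine le_of_tendsto h1 ?_
  filter_upwards [eventually_mem h.hV hy v] with n hn
  have h2 := (convex_Icc (0 : ℝ) 1).norm_image_sub_le_of_norm_hasDerivWithin_le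
    (f := fun s => dq (X s) y v n) (C := C * Real.exp (C + 1) * ‖v‖)
    (fun t ht => h.dq_deriv hy hn ht) (fun t ht => ?_) ht hs
  · refine h2.trans (le_of_eq ?_)
    ring
  · rw [norm_smul, Real.norm_of_nonneg (by positivity)]
    have h3 := bd_lip h.hc (k := k + 1) (h.bd t ht) (h.mem _ hn t ht) (h.mem y hy t ht)
    have h4 := h'.lip hn hy ht
    rw [add_sub_cancel_left, norm_smul, Real.norm_of_nonneg (by positivity)] at h4
    calc (2 : ℝ) ^ n * _ ≤ (2 : ℝ) ^ n * (C * (Real.exp (C + 1) * (((2 : ℝ) ^ n)⁻¹ * ‖v‖))) := by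
          gcongr
          exact h3.trans (by gcongr)
      _ = _ := by field_simp

theorem fd_time_cont (h : Fl (k + 2) C R f U V X) {y : E} (hy : y ∈ V) :
    ContinuousOn (fun s => fderiv ℝ (X s) y) (Icc 0 1) := by
  intro t ht
  rw [ContinuousWithinAt, tendsto_iff_norm_sub_tendsto_zero]
  have h1 : Tendsto (fun s : ℝ => C * Real.exp (C + 1) * ‖s - t‖) (𝓝[Icc 0 1] t) (𝓝 0) := by
    have : Continuous fun s : ℝ => C * Real.exp (C + 1) * ‖s - t‖ := by fun_prop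
    have h2 := this.tendsto t
    simp only [sub_self, norm_zero, mul_zero] at h2
    exact h2.mono_left nhdsWithin_le_nhds
  refine squeeze_zero' (Eventually.of_forall fun _ => norm_nonneg _) ?_ h1
  filter_upwards [self_mem_nhdsWithin] with s hs
  exact h.fd_lip_time hy hs ht

/-- **the variational equation** -/
theorem var_ode [FiniteDimensional ℝ E] (h : Fl (k + 2) C R f U V X) {y : E} (hy : y ∈ V) {t : ℝ}
    (ht : t ∈ Icc (0 : ℝ) 1) : HasDerivWithinAt (fun s => fderiv ℝ (X s) y)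
      ((fderiv ℝ (f t) (X t y)).comp (fderiv ℝ (X t) y)) (Icc 0 1) t := by
  obtain ⟨r, hr, hrV⟩ := Metric.isOpen_iff.1 h.hV y hy
  obtain ⟨K, hK⟩ := h.exists_rate hy hrV
  have hZ : ContinuousOn (fun s => (fderiv ℝ (f s) (X s y)).comp (fderiv ℝ (X s) y)) (Icc 0 1) :=
    (h.fd_cont_comp (h.curve_cont hy) (h.mem y hy)).clm_comp (h.fd_time_cont hy)
  rw [hasDerivWithinAt_iff_isLittleO, Asymptotics.isLittleO_iff]
  intro ε hε
  have h1 := Metric.tendsto_nhdsWithin_nhds.1 (hZ t ht) ε hε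
  obtain ⟨δ, hδ, h2⟩ := h1
  filter_upwards [self_mem_nhdsWithin, nhdsWithin_le_nhds (ball_mem_nhds t hδ)] with s hs hsδ
  refine ContinuousLinearMap.opNorm_le_of_ball hr (by positivity) fun v hv => ?_
  rw [mem_ball_zero_iff] at hv
  have hmem : ∀ n : ℕ, y + ((2 : ℝ) ^ n)⁻¹ • v ∈ V := by
    intro n
    apply hrV
    rw [mem_ball, dist_eq_norm, add_sub_cancel_left, norm_smul, Real.norm_of_nonneg (by positivity)]
    have h1 : ((2 : ℝ) ^ n)⁻¹ ≤ 1 := inv_le_one_of_one_le₀ (one_le_pow₀ (by norm_num))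
    nlinarith [norm_nonneg v]
  set Z := (fderiv ℝ (f t) (X t y)).comp (fderiv ℝ (X t) y) with hZdef
  have h3 : ∀ n : ℕ, ‖dq (X s) y v n - dq (X t) y v n - (s - t) • Z v‖
      ≤ (K * ‖v‖ ^ 2 * ((2 : ℝ) ^ n)⁻¹ + ε * ‖v‖) * ‖s - t‖ := by
    intro n
    have hconv : Convex ℝ (Icc (0 : ℝ) 1 ∩ ball t δ) := (convex_Icc 0 1).inter (convex_ball t δ)
    have h4 := hconv.norm_image_sub_le_of_norm_hasDerivWithin_le
      (f := fun s => dq (X s) y v n - s • Z v)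
      (f' := fun u => (2 : ℝ) ^ n • (f u (X u (y + ((2 : ℝ) ^ n)⁻¹ • v)) - f u (X u y)) - Z v)
      (C := K * ‖v‖ ^ 2 * ((2 : ℝ) ^ n)⁻¹ + ε * ‖v‖)
      (fun u hu => ?_) (fun u hu => ?_) ⟨ht, mem_ball_self hδ⟩ ⟨hs, hsδ⟩
    · have e : dq (X s) y v n - s • Z v - (dq (X t) y v n - t • Z v)
          = dq (X s) y v n - dq (X t) y v n - (s - t) • Z v := by module
      simp only [e] at h4
      exact h4
    · have e1 := (h.dq_deriv hy (hmem n) hu.1).mono (inter_subset_left (t := ball t δ))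
      have e2 : HasDerivWithinAt (fun s : ℝ => s • Z v) (Z v) (Icc 0 1 ∩ ball t δ) u := by
        simpa using (hasDerivWithinAt_id u _).smul_const (Z v)
      exact e1.sub e2
    · have e1 := hK v hv n u hu.1
      have e2 := h2 hu.1 (by rw [← mem_ball]; exact hu.2)
      rw [dist_eq_norm] at e2
      have e3 : (2 : ℝ) ^ n • (f u (X u (y + ((2 : ℝ) ^ n)⁻¹ • v)) - f u (X u y)) - Z v
          = ((2 : ℝ) ^ n • (f u (X u (y + ((2 : ℝ) ^ n)⁻¹ • v)) - f u (X u y))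
            - fderiv ℝ (f u) (X u y) (fderiv ℝ (X u) y v))
            + ((fderiv ℝ (f u) (X u y)).comp (fderiv ℝ (X u) y) - Z) v := by
        simp only [FunLike.coe_sub, Pi.sub_apply, ContinuousLinearMap.comp_apply]
        abel
      simp only [e3]
      refine (norm_add_le _ _).trans (add_le_add e1 ?_)
      exact (ContinuousLinearMap.le_opNorm _ _).trans (by gcongr)
  have h4 : Tendsto (fun n : ℕ => (K * ‖v‖ ^ 2 * ((2 : ℝ) ^ n)⁻¹ + ε * ‖v‖) * ‖s - t‖) atTop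
      (𝓝 ((K * ‖v‖ ^ 2 * 0 + ε * ‖v‖) * ‖s - t‖)) :=
    ((tp.const_mul _).add_const _).mul_const _
  have h5 : Tendsto (fun n : ℕ => ‖dq (X s) y v n - dq (X t) y v n - (s - t) • Z v‖) atTop
      (𝓝 ‖(fderiv ℝ (X s) y - fderiv ℝ (X t) y - (s - t) • Z) v‖) := by
    have := ((((h.deriv_all hy hs).2.2.1 v).sub ((h.deriv_all hy ht).2.2.1 v)).sub_const
      ((s - t) • Z v)).norm
    simpa using this
  have h6 := le_of_tendsto_of_tendsto' h5 h4 h3
  refine h6.trans (le_of_eq ?_)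
  ring

end Fl

end Vale.Agent.P207.H467
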