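import Vale.Agent.P207.H467.Dep2

/-!
# P207, line N4 (helper467): `C^∞` dependence on the initial value
-/

open Set Filter Topology Metric
open scoped ContDiff

namespace Vale.Agent.P207.H467

open P207N3H639

/-- the extended field -/
noncomputable def ef {E : Type} [NormedAddCommGroup E] [NormedSpace ℝ E] (f : ℝ → E → E) (t : ℝ)
    (p : E × (E →L[ℝ] E)) : E × (E →L[ℝ] E) := (f t p.1, (fderiv ℝ (f t) p.1).comp p.2)

/-- the extended curves -/
noncomputable def ex {E : Type} [NormedAddCommGroup E] [NormedSpace ℝ E] (X : ℝ → E → E) (t : ℝ)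
    (p : E × (E →L[ℝ] E)) : E × (E →L[ℝ] E) := (X t p.1, (fderiv ℝ (X t) p.1).comp p.2)

theorem fst_bd {E F : Type} [NormedAddCommGroup E] [NormedSpace ℝ E] [NormedAddCommGroup F]
    [NormedSpace ℝ F] {W : Set (E × F)} (hW : IsOpen W) {R : ℝ} (hR : ∀ p ∈ W, ‖p‖ ≤ R) (k : ℕ) :
    Bd W k (fun p : E × F => p.1) (max R 1) := by
  have h1 := (Bd.id (U := W) hR k).clm hW (ContinuousLinearMap.fst ℝ E F)
  refine (h1.congr hW fun _ _ => rfl).mono ?_
  have h2 : ‖ContinuousLinearMap.fst ℝ E F‖ ≤ 1 := ContinuousLinearMap.norm_fst_le ℝ E F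
  have h3 : (0 : ℝ) ≤ max R 1 := zero_le_one.trans (le_max_right _ _)
  nlinarith

theorem snd_bd {E F : Type} [NormedAddCommGroup E] [NormedSpace ℝ E] [NormedAddCommGroup F]
    [NormedSpace ℝ F] {W : Set (E × F)} (hW : IsOpen W) {R : ℝ} (hR : ∀ p ∈ W, ‖p‖ ≤ R) (k : ℕ) :
    Bd W k (fun p : E × F => p.2) (max R 1) := by
  have h1 := (Bd.id (U := W) hR k).clm hW (ContinuousLinearMap.snd ℝ E F)
  refine (h1.congr hW fun _ _ => rfl).mono ?_
  have h2 : ‖ContinuousLinearMap.snd ℝ E F‖ ≤ 1 := ContinuousLinearMap.norm_snd_le ℝ E F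
  have h3 : (0 : ℝ) ≤ max R 1 := zero_le_one.trans (le_max_right _ _)
  nlinarith

/-- the extended system -/
theorem exists_ext (E : Type) [NormedAddCommGroup E] [NormedSpace ℝ E] [FiniteDimensional ℝ E]
    (k : ℕ) {C : ℝ} (hC : 0 ≤ C) (R : ℝ) : ∃ C' R' Λ : ℝ, 0 ≤ C' ∧ 0 < Λ ∧
      ∀ (f : ℝ → E → E) (U V : Set E) (X : ℝ → E → E), Fl (k + 2) C R f U V X →
        Fl (k + 1) C' R' (ef f) (U ×ˢ ball 0 (2 * Λ)) (V ×ˢ ball 0 2) (ex X) := by
  haveI : CompleteSpace E := FiniteDimensional.complete ℝ E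
  set Λ := Real.exp (C + 1) with hΛdef
  have hΛ : 0 < Λ := Real.exp_pos _
  set R' := max R (2 * Λ) with hR'
  set D := max R' 1 with hD
  have hD0 : 0 ≤ D := zero_le_one.trans (le_max_right _ _)
  set c1 := cc (k + 1) D * C with hc1
  have hc10 : 0 ≤ c1 := mul_nonneg (zero_le_one.trans (one_le_cc _ hD0)) hC
  set c2 := 2 ^ (k + 1) * ‖ContinuousLinearMap.compL ℝ E E E‖ * c1 * D with hc2
  have hc20 : 0 ≤ c2 := by positivity
  refine ⟨c1 + c2, R', Λ, by positivity, hΛ, fun f U V X h => ?_⟩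
  have hW : IsOpen (U ×ˢ ball (0 : E →L[ℝ] E) (2 * Λ)) := h.hU.prod isOpen_ball
  have hbdd : ∀ p ∈ U ×ˢ ball (0 : E →L[ℝ] E) (2 * Λ), ‖p‖ ≤ R' := by
    rintro ⟨x, A⟩ ⟨hx, hA⟩
    simp only [mem_ball_zero_iff] at hA
    exact max_le_max (h.hR x hx) hA.le
  refine ⟨hW, h.hc.prod (convex_ball _ _), hbdd, h.hV.prod isOpen_ball, fun t ht => ?_,
    fun p hp => ?_, fun p hp t ht => ?_, fun p hp => ?_, fun p hp t ht => ?_⟩
  · rcases (U ×ˢ ball (0 : E →L[ℝ] E) (2 * Λ)).eq_empty_or_nonempty with he | hne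
    · rw [he]; exact Bd.empty
    have hm : MapsTo (fun p : E × (E →L[ℝ] E) => p.1) (U ×ˢ ball (0 : E →L[ℝ] E) (2 * Λ)) U :=
      fun p hp => hp.1
    have h1 : Bd (U ×ˢ ball (0 : E →L[ℝ] E) (2 * Λ)) (k + 1)
        (fun p : E × (E →L[ℝ] E) => f t p.1) c1 :=
      Bd.comp hW hne hm (h.bd t ht).of_succ (fst_bd hW hbdd _)
    have h2 : Bd (U ×ˢ ball (0 : E →L[ℝ] E) (2 * Λ)) (k + 1)
        (fun p : E × (E →L[ℝ] E) => fderiv ℝ (f t) p.1) c1 :=
      Bd.comp hW hne hm (h.bd t ht).fd (fst_bd hW hbdd _)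
    exact h1.prodMk hW (Bd.bilin hW (ContinuousLinearMap.compL ℝ E E E) hc10 hD0 h2
      (snd_bd hW hbdd _))
  · exact (h.ct _ hp.1).prodMk ((h.fd_cont' hp.1).clm_comp continuousOn_const)
  · refine ⟨h.mem _ hp.1 t ht, ?_⟩
    have h2 := hp.2
    rw [mem_ball_zero_iff] at h2 ⊢
    calc ‖(fderiv ℝ (X t) p.1).comp p.2‖ ≤ ‖fderiv ℝ (X t) p.1‖ * ‖p.2‖ :=
          ContinuousLinearMap.opNorm_comp_le _ _
      _ ≤ Λ * ‖p.2‖ := by gcongr; exact h.norm_fd_le hp.1 ht
      _ < 2 * Λ := by nlinarith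
  · have h1 : fderiv ℝ (X 0) p.1 = ContinuousLinearMap.id ℝ E := by
      have h2 : X 0 =ᶠ[𝓝 p.1] fun y => y := by
        filter_upwards [h.hV.mem_nhds hp.1] with y hy
        exact h.ini y hy
      rw [h2.fderiv_eq]
      exact fderiv_id
    exact Prod.ext (h.ini _ hp.1) (by simp only [ex, h1, ContinuousLinearMap.id_comp])
  · have h1 := h.var_ode hp.1 ht
    have h2 : HasDerivWithinAt (fun s => (fderiv ℝ (X s) p.1).comp p.2)
        (((fderiv ℝ (f t) (X t p.1)).comp (fderiv ℝ (X t) p.1)).comp p.2) (Icc 0 1) t := by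
      have h3 := ((ContinuousLinearMap.compL ℝ E E E).flip p.2).hasFDerivAt.comp_hasDerivWithinAt
        t h1
      exact h3
    exact (h.ode _ hp.1 t ht).prodMk h2

/-- **`C^k` dependence on the initial value, with bounds** -/
theorem exists_bd (k : ℕ) : ∀ (E : Type) [NormedAddCommGroup E] [NormedSpace ℝ E]
    [FiniteDimensional ℝ E] {C : ℝ} (_ : 0 ≤ C) (R : ℝ), ∃ K : ℝ, 0 ≤ K ∧
      ∀ (f : ℝ → E → E) (U V : Set E) (X : ℝ → E → E), Fl (k + 1) C R f U V X →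
        ∀ t ∈ Icc (0 : ℝ) 1, Bd V k (X t) K := by
  induction k with
  | zero =>
    intro E _ _ _ C hC R
    refine ⟨max R 0, le_max_right _ _, fun f U V X h t ht => ⟨?_, fun y hy =>
      (h.hR _ (h.mem y hy t ht)).trans (le_max_left _ _)⟩⟩
    have h' : Fl (0 + 1) C R f U V X := h
    have : LipschitzOnWith (Real.toNNReal (Real.exp (C + 1))) (X t) V := by
      refine LipschitzOnWith.of_dist_le_mul fun y hy z hz => ?_
      rw [dist_eq_norm, dist_eq_norm, Real.coe_toNNReal _ (Real.exp_pos _).le]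
      exact h'.lip hy hz ht
    exact this.continuousOn
  | succ k ih =>
    intro E _ _ _ C hC R
    haveI : CompleteSpace E := FiniteDimensional.complete ℝ E
    obtain ⟨C', R', Λ, hC', hΛ, hext⟩ := exists_ext E k hC R
    obtain ⟨K, hK0, hK⟩ := ih (E × (E →L[ℝ] E)) hC' R'
    set D := max R 1 + 1 with hD
    refine ⟨max (max R 0) (cc k D * K), le_max_of_le_left (le_max_right _ _),
      fun f U V X h t ht => ?_⟩
    rcases V.eq_empty_or_nonempty with rfl | hne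
    · exact Bd.empty
    refine ⟨fun y hy => (h.deriv_all hy ht).1.differentiableAt, fun y hy =>
      (h.hR _ (h.mem y hy t ht)).trans ((le_max_left _ _).trans (le_max_left _ _)), ?_⟩
    have h1 := hK _ _ _ _ (hext f U V X h) t ht
    have hVR : ∀ y ∈ V, ‖y‖ ≤ R := fun y hy => by
      have := h.hR _ (h.mem y hy 0 i0)
      rwa [h.ini y hy] at this
    have h2 : Bd V k (fun y => (y, ContinuousLinearMap.id ℝ E)) D :=
      ((Bd.id hVR k).prodMk h.hV (Bd.const (ContinuousLinearMap.id ℝ E))).mono (by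
        have : ‖ContinuousLinearMap.id ℝ E‖ ≤ 1 := ContinuousLinearMap.norm_id_le
        rw [hD]; linarith)
    have hm : MapsTo (fun y => (y, ContinuousLinearMap.id ℝ E)) V
        (V ×ˢ ball (0 : E →L[ℝ] E) 2) := by
      intro y hy
      refine ⟨hy, ?_⟩
      rw [mem_ball_zero_iff]
      exact ContinuousLinearMap.norm_id_le.trans_lt (by norm_num)
    have h3 := Bd.comp h.hV hne hm h1 h2
    have h4 := h3.clm h.hV (ContinuousLinearMap.snd ℝ E (E →L[ℝ] E))
    refine (h4.congr h.hV fun y _ => ?_).mono ?_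
    · simp only [ex, ContinuousLinearMap.coe_snd']
      exact ContinuousLinearMap.comp_id _
    · refine le_trans ?_ (le_max_right _ _)
      have h5 : ‖ContinuousLinearMap.snd ℝ E (E →L[ℝ] E)‖ ≤ 1 :=
        ContinuousLinearMap.norm_snd_le ℝ E _
      have hD0 : 0 ≤ D := by rw [hD]; positivity
      have h6 : 0 ≤ cc k D * K := mul_nonneg (zero_le_one.trans (one_le_cc k hD0)) hK0
      nlinarith

/-! ### translation to iterated derivatives -/

theorem bd_of_iter {E : Type} [NormedAddCommGroup E] [NormedSpace ℝ E] {U : Set E} (hU : IsOpen U)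
    {k : ℕ} : ∀ {F : Type} [NormedAddCommGroup F] [NormedSpace ℝ F] {f : E → F} {C : ℝ},
      ContDiffOn ℝ k f U → (∀ i ≤ k, ∀ x ∈ U, ‖iteratedFDeriv ℝ i f x‖ ≤ C) → Bd U k f C := by
  induction k with
  | zero =>
    intro F _ _ f C h1 h2
    refine ⟨h1.continuousOn, fun x hx => ?_⟩
    have := h2 0 le_rfl x hx
    rwa [norm_iteratedFDeriv_zero] at this
  | succ k ih =>
    intro F _ _ f C h1 h2
    have h3 : ContDiffOn ℝ ((k : WithTop ℕ∞) + 1) f U := by exact_mod_cast h1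
    rw [contDiffOn_succ_iff_fderiv_of_isOpen hU] at h3
    refine ⟨fun x hx => (h3.1 x hx).differentiableAt (hU.mem_nhds hx), fun x hx => ?_,
      ih h3.2.2 fun i hi x hx => ?_⟩
    · have := h2 0 (Nat.zero_le _) x hx
      rwa [norm_iteratedFDeriv_zero] at this
    · rw [norm_iteratedFDeriv_fderiv]
      exact h2 (i + 1) (by omega) x hx

theorem Bd_iter {E : Type} [NormedAddCommGroup E] [NormedSpace ℝ E] {U : Set E} (hU : IsOpen U)
    {k : ℕ} : ∀ {F : Type} [NormedAddCommGroup F] [NormedSpace ℝ F] {f : E → F} {C : ℝ},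
      Bd U k f C → ContDiffOn ℝ k f U ∧ ∀ i ≤ k, ∀ x ∈ U, ‖iteratedFDeriv ℝ i f x‖ ≤ C := by
  induction k with
  | zero =>
    intro F _ _ f C h
    refine ⟨contDiffOn_zero.2 h.1, fun i hi x hx => ?_⟩
    obtain rfl : i = 0 := by omega
    rw [norm_iteratedFDeriv_zero]
    exact h.2 x hx
  | succ k ih =>
    intro F _ _ f C h
    obtain ⟨h1, h2⟩ := ih h.2.2
    have h3 : ContDiffOn ℝ ((k : WithTop ℕ∞) + 1) f U :=
      (contDiffOn_succ_iff_fderiv_of_isOpen hU).2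
        ⟨fun x hx => (h.1 x hx).differentiableWithinAt, by simp, h1⟩
    refine ⟨by exact_mod_cast h3, fun i hi x hx => ?_⟩
    cases i with
    | zero => rw [norm_iteratedFDeriv_zero]; exact h.2.1 x hx
    | succ i =>
      rw [← norm_iteratedFDeriv_fderiv]
      exact h2 i (by omega) x hx

/-- **`C^∞` dependence on the initial value.** The field `f` is only continuous in the time; its
derivatives in the space variable are bounded by `M k`; the curves `X · y` are given. The bounds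
`K k` depend only on `E`, `M` and `R`. -/
theorem dep (E : Type) [NormedAddCommGroup E] [NormedSpace ℝ E] [FiniteDimensional ℝ E]
    (M : ℕ → ℝ) (R : ℝ) : ∃ K : ℕ → ℝ, ∀ (f : ℝ → E → E) (U V : Set E) (X : ℝ → E → E),
      IsOpen U → Convex ℝ U → (∀ x ∈ U, ‖x‖ ≤ R) → IsOpen V →
      (∀ t ∈ Icc (0 : ℝ) 1, ContDiffOn ℝ ∞ (f t) U) →
      (∀ k, ∀ t ∈ Icc (0 : ℝ) 1, ∀ x ∈ U, ‖iteratedFDeriv ℝ k (f t) x‖ ≤ M k) →
      (∀ x ∈ U, ContinuousOn (fun t => f t x) (Icc 0 1)) →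
      (∀ y ∈ V, ∀ t ∈ Icc (0 : ℝ) 1, X t y ∈ U) →
      (∀ y ∈ V, X 0 y = y) →
      (∀ y ∈ V, ∀ t ∈ Icc (0 : ℝ) 1,
        HasDerivWithinAt (fun s => X s y) (f t (X t y)) (Icc 0 1) t) →
      ∀ t ∈ Icc (0 : ℝ) 1, ContDiffOn ℝ ∞ (X t) V ∧
        ∀ k, ∀ y ∈ V, ‖iteratedFDeriv ℝ k (X t) y‖ ≤ K k := by
  have hMk : ∀ k : ℕ, ∃ C : ℝ, 0 ≤ C ∧ ∀ i ≤ k, M i ≤ C := by
    intro k
    refine ⟨∑ i ∈ Finset.range (k + 1), |M i|, Finset.sum_nonneg fun _ _ => abs_nonneg _,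
      fun i hi => (le_abs_self _).trans ?_⟩
    exact Finset.single_le_sum (f := fun i => |M i|) (fun _ _ => abs_nonneg _)
      (Finset.mem_range.2 (by omega))
  choose C hC0 hC using hMk
  choose K hK0 hK using fun k => exists_bd k E (hC0 (k + 1)) R
  refine ⟨K, fun f U V X hU hc hR hV hf hM hct hmem hini hode t ht => ?_⟩
  have hFl : ∀ k, Fl (k + 1) (C (k + 1)) R f U V X := fun k =>
    ⟨hU, hc, hR, hV, fun t ht => bd_of_iter hU ((hf t ht).of_le (by exact_mod_cast le_top))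
      fun i hi x hx => (hM i t ht x hx).trans (hC _ i hi), hct, hmem, hini, hode⟩
  have h1 : ∀ k, Bd V k (X t) (K k) := fun k => hK k f U V X (hFl k) t ht
  refine ⟨contDiffOn_infty.2 fun k => (Bd_iter hV (h1 k)).1, fun k y hy =>
    (Bd_iter hV (h1 k)).2 k le_rfl y hy⟩

end Vale.Agent.P207.H467
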